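import Vale.Agent.P235.Defs
import Mathlib.Combinatorics.SimpleGraph.Metric
import Mathlib.Tactic

set_option linter.all false

/-!
# P235, AP6: rounding of edge lengths

For a finite graph with positive lengths and `ε > 0` there are `N > 0` and even lengths `m ≥ 2` with
`pathDist G ℓ ≤ pathDist G m / N ≤ (1 + ε) * pathDist G ℓ`.
-/

namespace Vale.Agent.P235.R2.H222

open SimpleGraph

variable {V : Type} {G : SimpleGraph V}

/-- comparison of the length of a walk -/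
theorem walk_le_mul {ℓ ℓ' : Sym2 V → ℝ} {C : ℝ} (h : ∀ e ∈ G.edgeSet, ℓ e ≤ C * ℓ' e) {x y : V}
    (w : G.Walk x y) : (w.edges.map ℓ).sum ≤ C * (w.edges.map ℓ').sum := by
  induction w with
  | nil => simp
  | @cons u v z hadj p ih =>
      simp only [Walk.edges_cons, List.map_cons, List.sum_cons]
      have := h s(u, v) hadj
      linarith

theorem walk_nonneg {ℓ : Sym2 V → ℝ} (h : ∀ e ∈ G.edgeSet, 0 < ℓ e) {x y : V}
    (w : G.Walk x y) : 0 ≤ (w.edges.map ℓ).sum := by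
  induction w with
  | nil => simp
  | @cons u v z hadj p ih =>
      simp only [Walk.edges_cons, List.map_cons, List.sum_cons]
      have := h s(u, v) hadj
      linarith

theorem pd_le_walk {ℓ : Sym2 V → ℝ} (h : ∀ e ∈ G.edgeSet, 0 < ℓ e) {x y : V}
    (w : G.Walk x y) : pathDist G ℓ x y ≤ (w.edges.map ℓ).sum :=
  ciInf_le ⟨0, by rintro _ ⟨w, rfl⟩; exact walk_nonneg h w⟩ w

/-- comparison of path metrics -/
theorem pd_le_mul {ℓ ℓ' : Sym2 V → ℝ} {C : ℝ} (hC : 0 ≤ C) (hc : G.Connected)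
    (hℓ : ∀ e ∈ G.edgeSet, 0 < ℓ e) (h : ∀ e ∈ G.edgeSet, ℓ e ≤ C * ℓ' e) (x y : V) :
    pathDist G ℓ x y ≤ C * pathDist G ℓ' x y := by
  haveI : Nonempty (G.Walk x y) := ⟨(hc.preconnected x y).some⟩
  unfold pathDist
  rw [Real.mul_iInf_of_nonneg hC]
  exact le_ciInf fun w => (pd_le_walk hℓ w).trans (walk_le_mul h w)

/-- **rounding** -/
theorem round_pd [Finite V] (hc : G.Connected) {ℓ : Sym2 V → ℝ} (hℓ : ∀ e ∈ G.edgeSet, 0 < ℓ e)
    {ε : ℝ} (hε : 0 < ε) : ∃ (N : ℕ) (m : Sym2 V → ℕ), 0 < N ∧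
      (∀ e ∈ G.edgeSet, Even (m e) ∧ 2 ≤ m e) ∧
      (∀ e ∈ G.edgeSet, N * ℓ e ≤ m e ∧ (m e : ℝ) ≤ (1 + ε) * (N * ℓ e)) ∧
      ∀ x y, pathDist G ℓ x y ≤ pathDist G (fun e => (m e : ℝ)) x y / N ∧
        pathDist G (fun e => (m e : ℝ)) x y / N ≤ (1 + ε) * pathDist G ℓ x y := by
  classical
  obtain ⟨δ, hδ, hmin⟩ : ∃ δ : ℝ, 0 < δ ∧ ∀ e ∈ G.edgeSet, δ ≤ ℓ e := by
    haveI : Finite G.edgeSet := inferInstance
    rcases isEmpty_or_nonempty G.edgeSet with h | h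
    · exact ⟨1, one_pos, fun e he => (h.false ⟨e, he⟩).elim⟩
    · obtain ⟨e0, he0⟩ := Finite.exists_min fun e : G.edgeSet => ℓ e.1
      exact ⟨ℓ e0.1, hℓ _ e0.2, fun e he => he0 ⟨e, he⟩⟩
  obtain ⟨N, hN⟩ := exists_nat_gt (2 / (δ * ε))
  have hN0 : (0 : ℝ) < N := lt_trans (by positivity) hN
  have hN1 : 2 ≤ ε * (N * δ) := by
    rw [div_lt_iff₀ (by positivity)] at hN
    nlinarith
  set m : Sym2 V → ℕ := fun e => 2 * ⌈N * ℓ e / 2⌉₊ with hm
  have hle : ∀ e ∈ G.edgeSet, N * ℓ e ≤ m e ∧ (m e : ℝ) ≤ (1 + ε) * (N * ℓ e) := by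
    intro e he
    have h0 := hℓ e he
    have h1 := hmin e he
    have h2 : 0 < N * ℓ e := mul_pos hN0 h0
    have h3 := Nat.le_ceil (N * ℓ e / 2)
    have h4 := Nat.ceil_lt_add_one (show 0 ≤ N * ℓ e / 2 by positivity)
    have h5 : (m e : ℝ) = 2 * (⌈N * ℓ e / 2⌉₊ : ℝ) := by
      simp only [hm]; push_cast; ring
    have h6 : N * δ ≤ N * ℓ e := mul_le_mul_of_nonneg_left h1 hN0.le
    have h7 : 2 ≤ ε * (N * ℓ e) := hN1.trans (mul_le_mul_of_nonneg_left h6 hε.le)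
    constructor
    · rw [h5]; linarith
    · rw [h5]; linarith
  have hpos : ∀ e ∈ G.edgeSet, 0 < (m e : ℝ) := fun e he =>
    lt_of_lt_of_le (mul_pos hN0 (hℓ e he)) (hle e he).1
  have hcast : ∀ e ∈ G.edgeSet, 0 < m e := fun e he => by exact_mod_cast hpos e he
  refine ⟨N, m, by exact_mod_cast hN0, fun e he => ⟨⟨⌈N * ℓ e / 2⌉₊, by simp only [hm]; ring⟩, ?_⟩,
    hle, fun x y => ⟨?_, ?_⟩⟩
  · have := hcast e he
    simp only [hm] at this ⊢
    omega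
  · rw [le_div_iff₀ hN0, mul_comm]
    have h := pd_le_mul (G := G) (ℓ := fun e => N * ℓ e) (ℓ' := fun e => (m e : ℝ)) zero_le_one hc
      (fun e he => mul_pos hN0 (hℓ e he)) (fun e he => by simpa using (hle e he).1) x y
    have h' := pd_le_mul (G := G) (ℓ := ℓ) (ℓ' := fun e => N * ℓ e) (C := (N : ℝ)⁻¹)
      (by positivity) hc hℓ (fun e he => by
        rw [← mul_assoc, inv_mul_cancel₀ hN0.ne', one_mul]) x y
    have h2 : (N : ℝ) * pathDist G ℓ x y ≤ pathDist G (fun e => N * ℓ e) x y := by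
      have := mul_le_mul_of_nonneg_left h' hN0.le
      rwa [← mul_assoc, mul_inv_cancel₀ hN0.ne', one_mul] at this
    linarith
  · rw [div_le_iff₀ hN0]
    have h := pd_le_mul (G := G) (ℓ := fun e => (m e : ℝ)) (ℓ' := ℓ) (C := (1 + ε) * N)
      (by positivity) hc hpos (fun e he => by
        have := (hle e he).2
        linarith) x y
    linarith

/-- an embedding for the rounded lengths gives an embedding -/
theorem embeds_of_round [Finite V] (hc : G.Connected) {ℓ : Sym2 V → ℝ}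
    (hℓ : ∀ e ∈ G.edgeSet, 0 < ℓ e) {ε C : ℝ} (hε : 0 < ε) (hC : 0 ≤ C)
    (h : ∀ m : Sym2 V → ℕ, (∀ e ∈ G.edgeSet, Even (m e) ∧ 2 ≤ m e) →
      EmbedsL1 (pathDist G fun e => (m e : ℝ)) C) :
    EmbedsL1 (pathDist G ℓ) ((1 + ε) * C) := by
  obtain ⟨N, m, hN, hm, -, hd⟩ := round_pd hc hℓ hε
  obtain ⟨Ω, mΩ, μ, f, hf⟩ := h m hm
  have hN0 : (0 : ℝ) < N := by exact_mod_cast hN
  refine ⟨Ω, mΩ, μ, fun x => (N : ℝ)⁻¹ • f x, fun x y => ?_⟩
  have e1 : ‖(N : ℝ)⁻¹ • f x - (N : ℝ)⁻¹ • f y‖ = ‖f x - f y‖ / N := by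
    rw [← smul_sub, norm_smul, Real.norm_of_nonneg (inv_nonneg.2 hN0.le), div_eq_inv_mul]
  rw [e1]
  obtain ⟨a1, a2⟩ := hd x y
  obtain ⟨b1, b2⟩ := hf x y
  constructor
  · exact a1.trans (div_le_div_of_nonneg_right b1 hN0.le)
  · calc ‖f x - f y‖ / N ≤ C * pathDist G (fun e => (m e : ℝ)) x y / N :=
        div_le_div_of_nonneg_right b2 hN0.le
      _ = C * (pathDist G (fun e => (m e : ℝ)) x y / N) := by rw [mul_div_assoc]
      _ ≤ C * ((1 + ε) * pathDist G ℓ x y) := mul_le_mul_of_nonneg_left a2 hC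
      _ = (1 + ε) * C * pathDist G ℓ x y := by ring

end Vale.Agent.P235.R2.H222
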